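import Vale.Agent.P207.N3.H722.GeoIn
import Vale.Agent.P207.N3.H459.Inv
import Vale.Agent.P207.N3.H618.MetU

/-!
# P207, line N3, rows R11, R15, R23: the connection, the Hessian of the Busemann functions and the
derivative of the transition maps

`Conn I U`: the symmetric connection `Gam` of the chart `V`: the frames are parallel along the
geodesics, and the derivative of the field `vel ξ` (the gradient of the Busemann function `b ξ`) is
`U` in the frames. From this: the field `jac` of `Metr`, and `HessIn`.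
-/

open Set Filter Topology Metric
open scoped ContDiff

set_option linter.unusedSectionVars false

noncomputable section

namespace Vale.Agent.P207.N3.H618

open Vale.Agent.P207.N3.H76 (pk tl e0 sg)
open Vale.Agent.P207.N3.H722 (GeoIn HessIn)

/-! ### the variational equation -/

section Flow

variable {V : Type} [NormedAddCommGroup V] [NormedSpace ℝ V]

/-- the variational equation for the backward flow -/
theorem hasDerivAt_var {F : ℝ × V → V} {W : V → V} {c w : ℝ → V} {w' : V} {s : ℝ}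
    (hF : ContDiff ℝ ∞ F) (hW : DifferentiableAt ℝ W (c s))
    (hz : ∀ t q, fderiv ℝ F (t, q) (-1, W q) = 0) (hc : HasDerivAt c (W (c s)) s)
    (hw : HasDerivAt w w' s) :
    HasDerivAt (fun s => fderiv ℝ F (-s, c s) (0, w s))
      (fderiv ℝ F (-s, c s) (0, w' - fderiv ℝ W (c s) (w s))) s := by
  have hF2 : ContDiff ℝ 2 F := by exact_mod_cast contDiff_infty.1 hF 2
  have hD1 : ContDiff ℝ 1 (fderiv ℝ F) := hF2.fderiv_right (by norm_num)
  have hD : Differentiable ℝ (fderiv ℝ F) := hD1.differentiable (by simp)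
  set z : ℝ × V := (-s, c s) with hzd
  have h1 : HasDerivAt (fun s => ((-s, c s) : ℝ × V)) (-1, W (c s)) s :=
    (hasDerivAt_neg s).prodMk hc
  have h2 : HasDerivAt (fun s => fderiv ℝ F (-s, c s)) (fderiv ℝ (fderiv ℝ F) z (-1, W (c s))) s :=
    (hD z).hasFDerivAt.comp_hasDerivAt s h1
  have h3 : HasDerivAt (fun s => ((0, w s) : ℝ × V)) (0, w') s := (hasDerivAt_const s _).prodMk hw
  have h4 := h2.clm_apply h3
  refine h4.congr_deriv ?_
  -- symmetry
  have hsymm : fderiv ℝ (fderiv ℝ F) z (-1, W (c s)) (0, w s) =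
      fderiv ℝ (fderiv ℝ F) z (0, w s) (-1, W (c s)) := by
    have h5 : IsSymmSndFDerivAt ℝ F z := hF2.contDiffAt.isSymmSndFDerivAt (by simp)
    exact h5 _ _
  -- derivative of the identity
  have h6 : HasFDerivAt (fun y : ℝ × V => fderiv ℝ F y (-1, W y.2))
      ((fderiv ℝ F z).comp ((0 : (ℝ × V) →L[ℝ] ℝ).prod
        ((fderiv ℝ W (c s)).comp (ContinuousLinearMap.snd ℝ ℝ V))) +
        (fderiv ℝ (fderiv ℝ F) z).flip (-1, W (c s))) z := by
    have h7 : HasFDerivAt (fun y : ℝ × V => ((-1, W y.2) : ℝ × V))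
        ((0 : (ℝ × V) →L[ℝ] ℝ).prod
        ((fderiv ℝ W (c s)).comp (ContinuousLinearMap.snd ℝ ℝ V))) z := by
      refine (hasFDerivAt_const (-1 : ℝ) z).prodMk ?_
      have h8 : HasFDerivAt W (fderiv ℝ W (c s)) (Prod.snd z) := hW.hasFDerivAt
      exact h8.comp z hasFDerivAt_snd
    exact (hD z).hasFDerivAt.clm_apply h7
  have h9 : (fun y : ℝ × V => fderiv ℝ F y (-1, W y.2)) = fun _ => 0 :=
    funext fun y => hz y.1 y.2
  rw [h9] at h6
  have h10 := congrArg (fun T : (ℝ × V) →L[ℝ] V => T (0, w s)) (h6.unique (hasFDerivAt_const _ z))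
  simp only [_root_.add_apply, ContinuousLinearMap.coe_comp, Function.comp_apply,
    ContinuousLinearMap.prod_apply, _root_.zero_apply, ContinuousLinearMap.coe_snd',
    ContinuousLinearMap.flip_apply] at h10
  rw [hsymm]
  have h11 : ((0 : ℝ), w' - fderiv ℝ W (c s) (w s)) =
      ((0 : ℝ), w') - ((0 : ℝ), fderiv ℝ W (c s) (w s)) := by
    ext1 <;> simp
  rw [h11, map_sub]
  have h12 : fderiv ℝ (fderiv ℝ F) z (0, w s) (-1, W (c s)) =
      -fderiv ℝ F z (0, fderiv ℝ W (c s) (w s)) := by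
    rw [eq_neg_iff_add_eq_zero, add_comm]
    exact h10
  rw [h12]
  abel

/-- differentiation of a family of operators on the plane -/
theorem hasDerivAt_clm {A : ℝ → E2 →L[ℝ] E2} {A' : E2 →L[ℝ] E2} {t : ℝ}
    (h : ∀ w, HasDerivAt (fun s => A s w) (A' w) t) : HasDerivAt A A' t := by
  have key : ∀ T : E2 →L[ℝ] E2, T = ∑ i : Fin 2, (EuclideanSpace.proj i : E2 →L[ℝ] ℝ).smulRight
      (T (EuclideanSpace.single i 1)) := by
    intro T
    refine ContinuousLinearMap.ext fun v => ?_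
    have h1 : v = ∑ i : Fin 2, v i • EuclideanSpace.single i (1 : ℝ) := by
      ext k
      fin_cases k <;> simp
    conv_lhs => rw [h1]
    simp [map_smul]
  have h2 : A = fun s => ∑ i : Fin 2, (EuclideanSpace.proj i : E2 →L[ℝ] ℝ).smulRight
      (A s (EuclideanSpace.single i 1)) := funext fun s => key (A s)
  rw [h2, key A']
  refine HasDerivAt.fun_sum fun i _ => ?_
  exact ((ContinuousLinearMap.smulRightL ℝ E2 E2 (EuclideanSpace.proj i : E2 →L[ℝ] ℝ)
    ).hasFDerivAt.comp_hasDerivAt t (h (EuclideanSpace.single i 1)))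

end Flow

variable {Γ X B : Type} [Group Γ] [MetricSpace X] [ProperSpace X] [MulAction Γ X]
  [IsIsometricSMul Γ X] [TopologicalSpace B] [CompactSpace B] [T2Space B] [MulAction Γ B]
  [ContinuousConstSMul Γ B]

/-- The connection of the chart. -/
structure Conn {L : Leaf Γ X B} {V : Type} [NormedAddCommGroup V] [NormedSpace ℝ V]
    [FiniteDimensional ℝ V] (I : GeoIn L V) (U : X → E2 →L[ℝ] E2) where
  /-- the Christoffel symbols -/
  Gam : V → V →L[ℝ] V →L[ℝ] V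
  Gam_symm : ∀ q v w, Gam q v w = Gam q w v
  /-- the frames are parallel along the geodesics -/
  E_deriv : ∀ x c t, HasDerivAt (fun s => I.E (L.φ s x) c)
    (-(Gam (I.S.ft (L.φ t x)) (I.E (L.φ t x) e0) (I.E (L.φ t x) c))) t
  /-- the covariant derivative of the gradient of the Busemann functions -/
  core : ∀ x v, fderiv ℝ (I.vel (L.em x)) (I.S.ft x) (I.E x (pk 0 v)) =
    I.E x (pk 0 (U x v)) - Gam (I.S.ft x) (I.E x (pk 0 v)) (I.E x e0)

section Main

variable {L : Leaf Γ X B} {V : Type} [NormedAddCommGroup V] [NormedSpace ℝ V]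
  [FiniteDimensional ℝ V] (I : GeoIn L V)

/-! ### the flow -/

theorem psi_contDiff (ξ : B) : ContDiff ℝ ∞ (fun p : ℝ × V => I.S.psi ξ p.1 p.2) :=
  contDiff_iff_contDiffAt.2 fun p =>
    (I.S.psi_jc H459.invThm).contDiffAt (p := (ξ, p)) (mem_univ _)

theorem vel_contDiff (ξ : B) : ContDiff ℝ ∞ (I.vel ξ) :=
  contDiff_iff_contDiffAt.2 fun p =>
    (I.vel_jc H459.invThm).contDiffAt (p := (ξ, p)) (mem_univ _)

theorem hasDerivAt_psi (ξ : B) (s : ℝ) (q : V) :
    HasDerivAt (fun t => I.S.psi ξ t q) (I.vel ξ (I.S.psi ξ s q)) s :=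
  I.S.hasDerivAt_psi H459.invThm ξ s q

/-- the flow is constant along `(t - ε, psi ε q)` -/
theorem fderiv_psi_zero (ξ : B) (t : ℝ) (q : V) :
    fderiv ℝ (fun p : ℝ × V => I.S.psi ξ p.1 p.2) (t, q) (-1, I.vel ξ q) = 0 := by
  have h1 : HasDerivAt (fun ε : ℝ => ((t - ε, I.S.psi ξ ε q) : ℝ × V)) (-1, I.vel ξ q) 0 := by
    have h2 := hasDerivAt_psi I ξ 0 q
    rw [I.S.psi_zero] at h2
    have h3 : HasDerivAt (fun ε : ℝ => t - ε) (-1) 0 := by
      simpa using (hasDerivAt_id (0 : ℝ)).const_sub t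
    exact h3.prodMk h2
  have h4 : ((t - 0, I.S.psi ξ 0 q) : ℝ × V) = (t, q) := by rw [sub_zero, I.S.psi_zero]
  have h5 : HasFDerivAt (fun p : ℝ × V => I.S.psi ξ p.1 p.2)
      (fderiv ℝ (fun p : ℝ × V => I.S.psi ξ p.1 p.2) (t, q)) ((t - 0, I.S.psi ξ 0 q) : ℝ × V) := by
    rw [h4]
    exact ((psi_contDiff I ξ).differentiable (by simp) (t, q)).hasFDerivAt
  have h6 := h5.comp_hasDerivAt (0 : ℝ) (f := fun ε : ℝ => ((t - ε, I.S.psi ξ ε q) : ℝ × V)) h1
  have h7 : ((fun p : ℝ × V => I.S.psi ξ p.1 p.2) ∘ fun ε : ℝ => ((t - ε, I.S.psi ξ ε q) : ℝ × V))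
      = fun _ => I.S.psi ξ t q := by
    funext ε
    change I.S.psi ξ (t - ε) (I.S.psi ξ ε q) = _
    rw [← I.S.psi_add, sub_add_cancel]
  rw [h7] at h6
  exact h6.unique (hasDerivAt_const _ _)

/-- the derivative of the flow for fixed time -/
def Dpsi (ξ : B) (s : ℝ) (q : V) (v : V) : V :=
  fderiv ℝ (fun p : ℝ × V => I.S.psi ξ p.1 p.2) (s, q) (0, v)

theorem hasFDerivAt_psi (ξ : B) (s : ℝ) (q : V) : HasFDerivAt (I.S.psi ξ s)
    ((fderiv ℝ (fun p : ℝ × V => I.S.psi ξ p.1 p.2) (s, q)).comp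
      (ContinuousLinearMap.inr ℝ ℝ V)) q := by
  have h1 : HasFDerivAt (fun p : ℝ × V => I.S.psi ξ p.1 p.2)
      (fderiv ℝ (fun p : ℝ × V => I.S.psi ξ p.1 p.2) (s, q)) (s, q) :=
    ((psi_contDiff I ξ).differentiable (by simp) (s, q)).hasFDerivAt
  have h2 : HasFDerivAt (fun q : V => ((s, q) : ℝ × V)) (ContinuousLinearMap.inr ℝ ℝ V) q :=
    hasFDerivAt_prodMk_right s q
  exact h1.comp q h2

/-- the flow for time `-s` is the inverse of the flow for time `s` -/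
theorem Dpsi_neg (ξ : B) (s : ℝ) (q v : V) :
    Dpsi I ξ (-s) (I.S.psi ξ s q) (Dpsi I ξ s q v) = v := by
  have h1 := (hasFDerivAt_psi I ξ (-s) (I.S.psi ξ s q)).comp q (hasFDerivAt_psi I ξ s q)
  have h2 : (I.S.psi ξ (-s)) ∘ (I.S.psi ξ s) = id := by
    funext q
    change I.S.psi ξ (-s) (I.S.psi ξ s q) = q
    rw [← I.S.psi_add, neg_add_cancel, I.S.psi_zero]
  rw [h2] at h1
  exact congrArg (fun T : V →L[ℝ] V => T v) (h1.unique (hasFDerivAt_id q))

/-- the derivative of the tube -/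
theorem fderiv_A (x : X) (s : ℝ) (a : ℝ) (u : E2) :
    fderiv ℝ (I.S.A x) (s, 0) (a, u) =
      Dpsi I (L.em x) s (I.S.ft x) (I.E x (pk a (I.r₀ • u))) := by
  have h1 : HasFDerivAt (I.S.A x) (fderiv ℝ (I.S.A x) 0) 0 :=
    (I.S.A_jc.differentiableAt (I.S.mem_S x 0 I.S.zero_mem)).hasFDerivAt
  have h2 : HasFDerivAt (I.S.psi (L.em x) s)
    ((fderiv ℝ (fun p : ℝ × V => I.S.psi (L.em x) p.1 p.2) (s, I.S.ft x)).comp
      (ContinuousLinearMap.inr ℝ ℝ V)) (I.S.A x 0) := by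
    rw [I.S.A_zero]
    exact hasFDerivAt_psi I (L.em x) s (I.S.ft x)
  have h3 := h2.comp (0 : ℝ × E2) h1
  have h4 : HasFDerivAt (I.S.A x) (fderiv ℝ (I.S.A x) (s, 0)) ((s, 0) + (0 : ℝ × E2)) := by
    rw [add_zero]
    exact (I.S.A_jc.differentiableAt (I.S.mem_S x s I.S.zero_mem)).hasFDerivAt
  have h5 : HasFDerivAt (fun p : ℝ × E2 => ((s, 0) : ℝ × E2) + p)
      (ContinuousLinearMap.id ℝ (ℝ × E2)) 0 := (hasFDerivAt_id (0 : ℝ × E2)).const_add _
  have h6 := h4.comp (0 : ℝ × E2) h5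
  have h7 : (I.S.psi (L.em x) s ∘ I.S.A x) =ᶠ[𝓝 (0 : ℝ × E2)]
      (I.S.A x ∘ fun p : ℝ × E2 => ((s, 0) : ℝ × E2) + p) := by
    have h8 : ∀ᶠ p : ℝ × E2 in 𝓝 0, p.2 ∈ ball (0 : E2) I.S.R :=
      continuous_snd.continuousAt.eventually (isOpen_ball.mem_nhds I.S.zero_mem)
    filter_upwards [h8] with p hp
    have h9 := I.S.psi_A x s p.1 hp
    rw [I.em_eq] at h9
    change I.S.psi (L.em x) s (I.S.A x (p.1, p.2)) = I.S.A x (((s, 0) : ℝ × E2) + p)
    rw [h9]
    congr 1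
    ext1 <;> simp
  have h10 := (h6.congr_of_eventuallyEq h7).unique h3
  have h11 := congrArg (fun T : (ℝ × E2) →L[ℝ] V => T (a, u)) h10
  simp only [ContinuousLinearMap.coe_comp, Function.comp_apply, ContinuousLinearMap.id_apply]
    at h11
  rw [h11, I.A_fderiv]
  rfl

/-! ### the transition maps -/

theorem tau_of {x y : X} {u v : E2} (hv : v ∈ closedBall (0 : E2) 3) (h : L.e x u = L.e y v) :
    L.τ x y u = v := by
  rw [Leaf.τ, tau, h]
  exact (L.e_inj y).leftInvOn_invFunOn hv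

/-- **the derivative of the transition maps at the centre** -/
theorem exists_fderiv_tau {x z : X} (hem : L.em z = L.em x) {u : E2} (hu : u ∈ ball (0 : E2) 3)
    (he : L.e x u = L.ep z) {T : ℝ} (hT : I.S.A x (T, u) = I.S.ft z) :
    DifferentiableAt ℝ (L.τ z x) 0 ∧ ∃ a : E2 →L[ℝ] ℝ, ∀ w,
      fderiv ℝ (I.S.A x) (T, u) (a w, fderiv ℝ (L.τ z x) 0 w) = I.E z (pk 0 (I.r₀ • w)) := by
  have h03 : (0 : E2) ∈ closedBall (0 : E2) 3 := mem_closedBall_self (by norm_num)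
  have hS : I.S.e z 0 = I.S.e x u := by
    rw [I.S.e_zero, I.ep_eq, I.e_eq x u (ball_subset_closedBall hu), he]
  obtain ⟨O, G, h1, h2, h3, h4⟩ := I.S.tau_local' H459.invThm (x₀ := z) (y₀ := x) (u₀ := 0)
    (v₀ := u) (by rw [I.em_eq, I.em_eq, hem]) I.S.zero_mem hu hS
  have hG : HasFDerivAt (G (z, x)) (fderiv ℝ (G (z, x)) 0) 0 :=
    (h1.differentiableAt h2).hasFDerivAt
  have hO : {w : E2 | ((z, x), w) ∈ O} ∈ 𝓝 (0 : E2) :=
    (isOpen_slice h1.isOpen (z, x)).mem_nhds h2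
  -- the transition map
  have h5 : L.τ z x =ᶠ[𝓝 0] fun w => (G (z, x) w).2 := by
    have h6 : ∀ᶠ w : E2 in 𝓝 0, w ∈ closedBall (0 : E2) 3 :=
      mem_nhds_iff.2 ⟨ball 0 3, ball_subset_closedBall, isOpen_ball, mem_ball_self (by norm_num)⟩
    filter_upwards [hO, h6] with w hw hw3
    obtain ⟨-, h8, -, h10⟩ := h4 _ hw
    have h11 := (h10 (by rw [I.em_eq, I.em_eq, hem])).1
    simp only at h8 h11
    have h8' := ball_subset_closedBall h8
    refine tau_of h8' ?_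
    rw [← I.e_eq z w hw3, h11, I.e_eq x _ h8']
  have h5' : HasFDerivAt (L.τ z x)
      ((ContinuousLinearMap.snd ℝ ℝ E2).comp (fderiv ℝ (G (z, x)) 0)) 0 :=
    ((ContinuousLinearMap.snd ℝ ℝ E2).hasFDerivAt.comp (0 : E2) hG).congr_of_eventuallyEq h5
  -- the crossing time
  have h7 : G (z, x) 0 = (T, u) := by
    obtain ⟨-, -, h9, -⟩ := h4 _ h2
    simp only at h9
    have h10 : I.S.A z (0, 0) = I.S.ft z := I.S.A_zero z
    have hGe : G (z, x) 0 = ((G (z, x) 0).1, u) := Prod.ext rfl h3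
    have huR := I.S.mem_R (ball_subset_closedBall hu)
    rw [h10, ← hT, hGe, I.S.A_psi x (G (z, x) 0).1 u huR, I.S.A_psi x T u huR] at h9
    have h11 : I.S.psi (I.S.em x) ((G (z, x) 0).1 - T) (I.S.A x (0, u)) = I.S.A x (0, u) := by
      have h12 := congrArg (I.S.psi (I.S.em x) (-T)) h9
      rw [← I.S.psi_add, ← I.S.psi_add, neg_add_cancel, I.S.psi_zero] at h12
      rw [← h12]
      congr 1
      ring
    have h13 := I.S.psi_ne _ _ _ h11
    rw [hGe, sub_eq_zero.1 h13]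
  refine ⟨h5'.differentiableAt,
    (ContinuousLinearMap.fst ℝ ℝ E2).comp (fderiv ℝ (G (z, x)) 0), fun w => ?_⟩
  rw [h5'.fderiv]
  -- derivative of the crossing
  have huR : u ∈ ball (0 : E2) I.S.R := I.S.mem_R (ball_subset_closedBall hu)
  have h14 : HasFDerivAt (I.S.A x) (fderiv ℝ (I.S.A x) (T, u)) (G (z, x) 0) := by
    rw [h7]
    exact (I.S.A_jc.differentiableAt (I.S.mem_S x T huR)).hasFDerivAt
  have h15 := h14.comp (0 : E2) hG
  have h16 : HasFDerivAt (fun w : E2 => I.S.A z (0, w))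
      ((fderiv ℝ (I.S.A z) 0).comp (ContinuousLinearMap.inr ℝ ℝ E2)) 0 := by
    have h17 : HasFDerivAt (I.S.A z) (fderiv ℝ (I.S.A z) 0) ((0 : ℝ), (0 : E2)) :=
      (I.S.A_jc.differentiableAt (I.S.mem_S z 0 I.S.zero_mem)).hasFDerivAt
    exact h17.comp (0 : E2) (hasFDerivAt_prodMk_right (0 : ℝ) (0 : E2))
  have h18 : (I.S.A x ∘ G (z, x)) =ᶠ[𝓝 (0 : E2)] fun w : E2 => I.S.A z (0, w) := by
    filter_upwards [hO] with w hw
    exact (h4 _ hw).2.2.1
  have h19 := (h16.congr_of_eventuallyEq h18).unique h15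
  have h20 := congrArg (fun T : E2 →L[ℝ] V => T w) h19
  simp only [ContinuousLinearMap.coe_comp, Function.comp_apply, ContinuousLinearMap.inr_apply]
    at h20
  rw [← I.A_fderiv z 0 w, h20]
  rfl

/-- the inverse of the frame, second part -/
def cr (x : X) : V →L[ℝ] E2 :=
  I.r₀⁻¹ • (LinearMap.toContinuousLinearMap H76.tlL).comp (I.EE x).symm.toContinuousLinearMap

theorem cr_E (x : X) (a : ℝ) (u : E2) : cr I x (I.E x (pk a (I.r₀ • u))) = u := by
  have h1 : (I.EE x).symm (I.E x (pk a (I.r₀ • u))) = pk a (I.r₀ • u) :=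
    (I.EE x).symm_apply_apply _
  have h2 : cr I x (I.E x (pk a (I.r₀ • u))) =
      I.r₀⁻¹ • tl ((I.EE x).symm (I.E x (pk a (I.r₀ • u)))) := rfl
  rw [h2, h1, H76.tl_pk, smul_smul, inv_mul_cancel₀ I.r₀_pos.ne', one_smul]

theorem A_ft (x : X) (s : ℝ) : I.S.A x (s, 0) = I.S.ft (L.φ s x) := by
  have h5 : I.S.A x (0, 0) = I.S.ft x := I.S.A_zero x
  rw [I.S.A_psi x s 0 I.S.zero_mem, h5, I.em_eq, I.ft_φ]

theorem psi_ft (x : X) (s : ℝ) : I.S.psi (L.em x) s (I.S.ft x) = I.S.ft (L.φ s x) :=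
  (I.ft_φ x s).symm

/-- the derivative of the transition map in terms of the backward flow -/
theorem exists_Dpsi (x : X) (s : ℝ) : ∃ a : E2 →L[ℝ] ℝ, ∀ w,
    Dpsi I (L.em x) (-s) (I.S.ft (L.φ s x)) (I.E (L.φ s x) (pk 0 (I.r₀ • w))) =
      I.E x (pk (a w) (I.r₀ • fderiv ℝ (L.τ (L.φ s x) x) 0 w)) := by
  obtain ⟨-, a, ha⟩ := exists_fderiv_tau I (x := x) (z := L.φ s x) (L.em_φ s x) (u := 0)
    (mem_ball_self (by norm_num)) (by rw [L.e_zero, GeoIn.ep_φ]) (T := s) (A_ft I x s)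
  refine ⟨a, fun w => ?_⟩
  rw [← ha w, fderiv_A, ← psi_ft, Dpsi_neg]

end Main

namespace Conn

variable {L : Leaf Γ X B} {V : Type} [NormedAddCommGroup V] [NormedSpace ℝ V]
  [FiniteDimensional ℝ V] {I : GeoIn L V} {U : X → E2 →L[ℝ] E2} (C : Conn I U)

include C

/-- **the derivative of the transition maps along an orbit** -/
theorem jac (x : X) (t : ℝ) : HasDerivAt (fun s => fderiv ℝ (L.τ (L.φ s x) x) 0)
    (-(fderiv ℝ (L.τ (L.φ t x) x) 0 ∘L U (L.φ t x))) t := by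
  refine hasDerivAt_clm fun w => ?_
  set ξ := L.em x with hξ
  have hF := psi_contDiff I ξ
  have hW : DifferentiableAt ℝ (I.vel ξ) (I.S.ft (L.φ t x)) :=
    (vel_contDiff I ξ).differentiable (by simp) _
  have hc : HasDerivAt (fun s => I.S.ft (L.φ s x)) (I.vel ξ (I.S.ft (L.φ t x))) t := by
    have h1 := I.hasDerivAt_ft x t
    have h2 := I.vel_eq H459.invThm (L.φ t x)
    rw [L.em_φ] at h2
    rw [← h2] at h1
    exact h1
  have hw := C.E_deriv x (pk 0 (I.r₀ • w)) t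
  have h1 := hasDerivAt_var hF hW (fun t q => fderiv_psi_zero I ξ t q) hc hw
  have h2 := ((cr I x).hasFDerivAt).comp_hasDerivAt t h1
  have h3 : (fun s => fderiv ℝ (L.τ (L.φ s x) x) 0 w) = (cr I x) ∘ fun s =>
      fderiv ℝ (fun p : ℝ × V => I.S.psi ξ p.1 p.2) (-s, I.S.ft (L.φ s x))
        (0, I.E (L.φ s x) (pk 0 (I.r₀ • w))) := by
    funext s
    obtain ⟨a, ha⟩ := exists_Dpsi I x s
    have h4 := ha w
    change _ = cr I x (Dpsi I ξ (-s) (I.S.ft (L.φ s x)) (I.E (L.φ s x) (pk 0 (I.r₀ • w))))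
    rw [h4, cr_E]
  rw [h3]
  refine h2.congr_deriv ?_
  -- the covariant derivatives cancel
  have hcore := C.core (L.φ t x) (I.r₀ • w)
  rw [L.em_φ] at hcore
  have h5 : -(C.Gam (I.S.ft (L.φ t x)) (I.E (L.φ t x) e0) (I.E (L.φ t x) (pk 0 (I.r₀ • w)))) -
      fderiv ℝ (I.vel ξ) (I.S.ft (L.φ t x)) (I.E (L.φ t x) (pk 0 (I.r₀ • w))) =
      -I.E (L.φ t x) (pk 0 (I.r₀ • U (L.φ t x) w)) := by
    rw [hcore, C.Gam_symm, map_smul]
    abel
  rw [h5]
  obtain ⟨a, ha⟩ := exists_Dpsi I x t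
  have h6 := ha (U (L.φ t x) w)
  have h7 : ((0 : ℝ), -I.E (L.φ t x) (pk 0 (I.r₀ • U (L.φ t x) w))) =
      -((0 : ℝ), I.E (L.φ t x) (pk 0 (I.r₀ • U (L.φ t x) w))) := by
    ext1 <;> simp
  rw [h7, map_neg, map_neg]
  change -(cr I x (Dpsi I ξ (-t) (I.S.ft (L.φ t x))
    (I.E (L.φ t x) (pk 0 (I.r₀ • U (L.φ t x) w))))) = _
  rw [h6, cr_E]
  rfl

theorem core_add (x : X) (v : E2) :
    fderiv ℝ (I.vel (L.em x)) (I.S.ft x) (I.E x (pk 0 v)) +
      fderiv ℝ (I.vel (L.ep x)) (I.S.ft x) (I.E x (pk 0 v)) =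
      I.E x (pk 0 (U x v + U (L.flip x) v)) := by
  have h1 := C.core x v
  have h2 := C.core (L.flip x) v
  have hsg : ∀ u : E2, I.E (L.flip x) (pk 0 u) = I.E x (pk 0 u) := fun u => by
    rw [I.E_flip]
    congr 1
    ext i
    fin_cases i
    · change -(0 : ℝ) = 0
      exact neg_zero
    · rfl
    · rfl
  rw [GeoIn.em_flip, I.ft_flip, hsg, hsg, I.E_flip_e0, map_neg, sub_neg_eq_add] at h2
  rw [h1, h2]
  have h3 : pk 0 (U x v + U (L.flip x) v) = pk 0 (U x v) + pk 0 (U (L.flip x) v) := by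
    rw [← H76.pk_add, add_zero]
  rw [h3, map_add]
  abel

/-- **the second derivative of `b_ξ + b_η` on the geodesic `(ξ, η)`** -/
theorem hess (x : X) (v w : E2) :
    fderiv ℝ (fderiv ℝ (fun q => I.b (L.em x) q + I.b (L.ep x) q)) (I.S.ft x)
      (I.E x (pk 0 v)) (I.E x (pk 0 w)) = inner ℝ (U x v + U (L.flip x) v) w := by
  have hinv := H459.invThm
  have hvd : ∀ ξ, HasFDerivAt (I.vel ξ) (fderiv ℝ (I.vel ξ) (I.S.ft x)) (I.S.ft x) := fun ξ =>
    ((vel_contDiff I ξ).differentiable (by simp) _).hasFDerivAt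
  have hG : HasFDerivAt I.G (fderiv ℝ I.G (I.S.ft x)) (I.S.ft x) :=
    (I.G_smooth.differentiable (by simp) _).hasFDerivAt
  have h1 : fderiv ℝ (fun q => I.b (L.em x) q + I.b (L.ep x) q) =
      fun q => I.G q (I.vel (L.em x) q) + I.G q (I.vel (L.ep x) q) := by
    funext q
    exact ((I.b_hasFDerivAt hinv (L.em x) q).add (I.b_hasFDerivAt hinv (L.ep x) q)).fderiv
  have h2 := ((hG.clm_apply (hvd (L.em x))).add (hG.clm_apply (hvd (L.ep x)))).fderiv
  have h3 : I.vel (L.ep x) (I.S.ft x) = -I.vel (L.em x) (I.S.ft x) := by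
    have h4 := I.vel_line hinv (L.em x) (I.S.ft x)
    rwa [I.line_eq] at h4
  have h5 := C.core_add x v
  have h6 : I.G (I.S.ft x) (fderiv ℝ (I.vel (L.em x)) (I.S.ft x) (I.E x (pk 0 v)))
      (I.E x (pk 0 w)) + I.G (I.S.ft x) (fderiv ℝ (I.vel (L.ep x)) (I.S.ft x) (I.E x (pk 0 v)))
      (I.E x (pk 0 w)) = inner ℝ (U x v + U (L.flip x) v) w := by
    rw [← _root_.add_apply, ← map_add, h5, I.G_E]
    simp only [PiLp.inner_apply, Fin.sum_univ_three, Fin.sum_univ_two, H76.pk_zero, H76.pk_one,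
      H76.pk_two, inner_zero_right, zero_add]
  rw [h1]
  refine (congrArg (fun T : V →L[ℝ] V →L[ℝ] ℝ => T (I.E x (pk 0 v)) (I.E x (pk 0 w))) h2).trans ?_
  rw [← h6]
  simp only [_root_.add_apply, ContinuousLinearMap.coe_comp, Function.comp_apply,
    ContinuousLinearMap.flip_apply, h3, map_neg, _root_.neg_apply]
  abel

/-- the structure `HessIn` -/
theorem hessIn (M : Metr L) (h : M.U = U) : HessIn I M := ⟨fun x v w => by
  rw [h]
  exact C.hess x v w⟩

end Conn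

end Vale.Agent.P207.N3.H618
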