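import Vale.Agent.P207.H575.T3.SL2

/-!
# Semigroups of real `2 × 2` matrices of determinant `± 1` with eigenvalues of modulus one

The extension of `sl2_alt` (determinant `1`) to determinant `± 1`: an element `t` of determinant
`-1` has trace `0`, so `t² = 1`, and `t s t` has determinant one if `s` has.
-/

open Matrix

namespace Vale.Agent.P207.N3.H618

open Vale.Agent.P207.H575.T3

/-- the eigenvalues of `M` have the same modulus -/
def R1 (M : Matrix (Fin 2) (Fin 2) ℝ) : Prop :=
  M.trace ^ 2 ≤ 4 * |M.det| ∧ (M.det < 0 → M.trace = 0)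

theorem chol {a b d : ℝ} (ha : 0 < a) (hd : 0 < a * d - b * b) :
    ∃ P : M2, P.det ≠ 0 ∧ Pᵀ * P = !![a, b; b, d] := by
  have h1 : 0 < Real.sqrt a := Real.sqrt_pos.2 ha
  have h2 : 0 < (a * d - b * b) / a := div_pos hd ha
  have h3 : 0 < Real.sqrt ((a * d - b * b) / a) := Real.sqrt_pos.2 h2
  have h4 : Real.sqrt a * Real.sqrt a = a := Real.mul_self_sqrt ha.le
  have h5 : Real.sqrt ((a * d - b * b) / a) * Real.sqrt ((a * d - b * b) / a) =
    (a * d - b * b) / a := Real.mul_self_sqrt h2.le
  refine ⟨!![Real.sqrt a, b / Real.sqrt a; 0, Real.sqrt ((a * d - b * b) / a)], ?_, ?_⟩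
  · rw [Matrix.det_fin_two_of]
    simp only [mul_zero, sub_zero]
    positivity
  · ext i j
    fin_cases i <;> fin_cases j <;>
      simp [Matrix.mul_apply, Fin.sum_univ_two, Matrix.transpose_apply]
    · exact h4
    · field_simp
    · field_simp
    · rw [h5, div_mul_div_comm, h4]
      field_simp
      ring

theorem sq_one {t : M2} (hd : t.det = -1) (ht : t.trace = 0) : t * t = 1 := by
  rw [Matrix.det_fin_two] at hd
  rw [tr2] at ht
  have h : t 1 1 = - t 0 0 := by linarith
  rw [h] at hd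
  ext i j
  rw [mul2]
  fin_cases i <;> fin_cases j <;> simp
  · nlinarith
  · rw [h]; ring
  · rw [h]; ring
  · rw [h]; nlinarith

/-- the dichotomy for semigroups of matrices of determinant `± 1` with eigenvalues of modulus
one -/
theorem sl2pm_alt {S : Set M2} (hmul : ∀ a ∈ S, ∀ b ∈ S, a * b ∈ S)
    (hdet : ∀ a ∈ S, a.det = 1 ∨ a.det = -1) (htr : ∀ a ∈ S, a.det = 1 → |a.trace| ≤ 2)
    (htr' : ∀ a ∈ S, a.det = -1 → a.trace = 0) :
    (∃ P : M2, P.det ≠ 0 ∧ ∀ s ∈ S, (P * s)ᵀ * (P * s) = Pᵀ * P) ∨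
    (∃ v0 v1 : ℝ, (v0 ≠ 0 ∨ v1 ≠ 0) ∧ ∀ s ∈ S, ∃ c : ℝ, |c| = 1 ∧
      s 0 0 * v0 + s 0 1 * v1 = c * v0 ∧ s 1 0 * v0 + s 1 1 * v1 = c * v1) := by
  have hp := sl2_alt (S := {a | a ∈ S ∧ a.det = 1})
    (fun a ha b hb => ⟨hmul a ha.1 b hb.1, by rw [Matrix.det_mul, ha.2, hb.2, mul_one]⟩)
    (fun a ha => ha.2) (fun a ha => htr a ha.1 ha.2)
  by_cases hneg : ∃ t ∈ S, t.det = -1
  swap
  · push Not at hneg
    have hall : ∀ s ∈ S, s.det = 1 := fun s hs => (hdet s hs).resolve_right (hneg s hs)
    rcases hp with ⟨P, hP, h⟩ | ⟨v0, v1, hv, h⟩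
    · exact Or.inl ⟨P, hP, fun s hs => h s ⟨hs, hall s hs⟩⟩
    · exact Or.inr ⟨v0, v1, hv, fun s hs => h s ⟨hs, hall s hs⟩⟩
  obtain ⟨t, htS, htd⟩ := hneg
  have htt : t * t = 1 := sq_one htd (htr' t htS htd)
  -- `t s t` is in the positive part
  have hconj : ∀ s ∈ S, s.det = 1 → t * s * t ∈ {a | a ∈ S ∧ a.det = 1} := fun s hs hd =>
    ⟨hmul _ (hmul t htS s hs) t htS, by rw [Matrix.det_mul, Matrix.det_mul, htd, hd]; norm_num⟩
  have hts : ∀ s : M2, t * s = t * s * t * t := fun s => by
    rw [mul_assoc (t * s), htt, mul_one]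
  have hneg' : ∀ s ∈ S, s.det = -1 → s * t ∈ {a | a ∈ S ∧ a.det = 1} := fun s hs hd =>
    ⟨hmul s hs t htS, by rw [Matrix.det_mul, hd, htd]; norm_num⟩
  have hst : ∀ s : M2, s = s * t * t := fun s => by rw [mul_assoc, htt, mul_one]
  rcases hp with ⟨P, hP, h⟩ | ⟨v0, v1, hv, h⟩
  · left
    set Q : M2 := Pᵀ * P + (P * t)ᵀ * (P * t) with hQ
    have hinvp : ∀ s ∈ S, s.det = 1 → sᵀ * Q * s = Q := by
      intro s hs hd
      have h1 := h s ⟨hs, hd⟩
      have h2 := h _ (hconj s hs hd)
      have h3 : (P * t * s)ᵀ * (P * t * s) = (P * t)ᵀ * (P * t) := by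
        have e : P * t * s = P * (t * s * t) * t :=
          calc P * t * s = P * (t * s) := mul_assoc _ _ _
            _ = P * (t * s * t * t) := congrArg (fun z => P * z) (hts s)
            _ = P * (t * s * t) * t := (mul_assoc _ _ _).symm
        rw [e, Matrix.transpose_mul, mul_assoc tᵀ, ← mul_assoc _ _ t, h2, Matrix.transpose_mul]
        simp only [mul_assoc]
      calc sᵀ * Q * s = (P * s)ᵀ * (P * s) + (P * t * s)ᵀ * (P * t * s) := by
            rw [hQ]
            simp only [Matrix.transpose_mul, mul_add, add_mul, mul_assoc]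
        _ = Q := by rw [h1, h3]
    have hinvt : tᵀ * Q * t = Q := by
      calc tᵀ * Q * t = (P * t)ᵀ * (P * t) + (P * (t * t))ᵀ * (P * (t * t)) := by
            rw [hQ]
            simp only [Matrix.transpose_mul, mul_add, add_mul, mul_assoc]
        _ = Q := by rw [htt, mul_one, hQ, add_comm]
    have hinv : ∀ s ∈ S, sᵀ * Q * s = Q := by
      intro s hs
      rcases hdet s hs with hd | hd
      · exact hinvp s hs hd
      · have h1 := hneg' s hs hd
        have h2 := hinvp _ h1.1 h1.2
        calc sᵀ * Q * s = tᵀ * ((s * t)ᵀ * Q * (s * t)) * t := by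
              conv_lhs => rw [hst s]
              simp only [Matrix.transpose_mul, mul_assoc]
          _ = Q := by rw [h2, hinvt]
    -- Cholesky
    have hP' : P 0 0 * P 1 1 - P 0 1 * P 1 0 ≠ 0 := by rwa [Matrix.det_fin_two] at hP
    set R : M2 := P * t with hR
    have q00 : Q 0 0 = P 0 0 ^ 2 + P 1 0 ^ 2 + (R 0 0 ^ 2 + R 1 0 ^ 2) := by
      rw [hQ, Matrix.add_apply, mul2, mul2]
      simp only [Matrix.transpose_apply]
      ring
    have q01 : Q 0 1 = P 0 0 * P 0 1 + P 1 0 * P 1 1 + (R 0 0 * R 0 1 + R 1 0 * R 1 1) := by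
      rw [hQ, Matrix.add_apply, mul2, mul2]
      simp only [Matrix.transpose_apply]
    have q10 : Q 1 0 = P 0 0 * P 0 1 + P 1 0 * P 1 1 + (R 0 0 * R 0 1 + R 1 0 * R 1 1) := by
      rw [hQ, Matrix.add_apply, mul2, mul2]
      simp only [Matrix.transpose_apply]
      ring
    have q11 : Q 1 1 = P 0 1 ^ 2 + P 1 1 ^ 2 + (R 0 1 ^ 2 + R 1 1 ^ 2) := by
      rw [hQ, Matrix.add_apply, mul2, mul2]
      simp only [Matrix.transpose_apply]
      ring
    have ha : 0 < Q 0 0 := by
      rw [q00]
      have h3 : 0 < P 0 0 ^ 2 + P 1 0 ^ 2 := by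
        by_contra hc
        have h4 : P 0 0 = 0 := by nlinarith [sq_nonneg (P 0 0), sq_nonneg (P 1 0)]
        have h5 : P 1 0 = 0 := by nlinarith [sq_nonneg (P 0 0), sq_nonneg (P 1 0)]
        exact hP' (by rw [h4, h5]; ring)
      positivity
    have hd : 0 < Q 0 0 * Q 1 1 - Q 0 1 * Q 0 1 := by
      have e : Q 0 0 * Q 1 1 - Q 0 1 * Q 0 1 =
          (P 0 0 * P 1 1 - P 0 1 * P 1 0) ^ 2 + ((P 0 0 * R 0 1 - P 0 1 * R 0 0) ^ 2 +
          (P 0 0 * R 1 1 - P 0 1 * R 1 0) ^ 2 + (P 1 0 * R 0 1 - P 1 1 * R 0 0) ^ 2 +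
          (P 1 0 * R 1 1 - P 1 1 * R 1 0) ^ 2 + (R 0 0 * R 1 1 - R 0 1 * R 1 0) ^ 2) := by
        rw [q00, q01, q11]; ring
      rw [e]
      have := pow_pos (abs_pos.2 hP') 2
      rw [sq_abs] at this
      positivity
    obtain ⟨P', hP0, hPQ⟩ := chol ha hd
    have hQe : P'ᵀ * P' = Q := by
      rw [hPQ]
      ext i j
      fin_cases i <;> fin_cases j <;> simp [q01, q10]
    refine ⟨P', hP0, fun s hs => ?_⟩
    rw [hQe, Matrix.transpose_mul, mul_assoc, ← mul_assoc P'ᵀ, hQe, ← mul_assoc]
    exact hinv s hs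
  · right
    by_cases hc : ∃ s0 ∈ S, s0.det = 1 ∧ s0 ≠ 1 ∧ s0 ≠ -1
    · obtain ⟨s, hs, hsd, hs1, hs2⟩ := hc
      obtain ⟨c, hc, e0, e1⟩ := h s ⟨hs, hsd⟩
      obtain ⟨c', hc', e0', e1'⟩ := h _ (hconj s hs hsd)
      set w0 := t 0 0 * v0 + t 0 1 * v1 with hw0
      set w1 := t 1 0 * v0 + t 1 1 * v1 with hw1
      have htt0 : t 0 0 * t 0 0 + t 0 1 * t 1 0 = 1 := by
        have := congr_fun (congr_fun htt 0) 0; rw [mul2] at this; simpa using this
      have htt1 : t 0 0 * t 0 1 + t 0 1 * t 1 1 = 0 := by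
        have := congr_fun (congr_fun htt 0) 1; rw [mul2] at this; simpa using this
      have htt2 : t 1 0 * t 0 0 + t 1 1 * t 1 0 = 0 := by
        have := congr_fun (congr_fun htt 1) 0; rw [mul2] at this; simpa using this
      have htt3 : t 1 0 * t 0 1 + t 1 1 * t 1 1 = 1 := by
        have := congr_fun (congr_fun htt 1) 1; rw [mul2] at this; simpa using this
      -- `s w = c' w`
      have f0 : s 0 0 * w0 + s 0 1 * w1 = c' * w0 := by
        have a0 : (t * s * t) 0 0 * v0 + (t * s * t) 0 1 * v1 =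
            t 0 0 * (s 0 0 * w0 + s 0 1 * w1) + t 0 1 * (s 1 0 * w0 + s 1 1 * w1) := by
          simp only [mul2, hw0, hw1]; ring
        have a1 : (t * s * t) 1 0 * v0 + (t * s * t) 1 1 * v1 =
            t 1 0 * (s 0 0 * w0 + s 0 1 * w1) + t 1 1 * (s 1 0 * w0 + s 1 1 * w1) := by
          simp only [mul2, hw0, hw1]; ring
        rw [a0] at e0'
        rw [a1] at e1'
        have : t 0 0 * (t 0 0 * (s 0 0 * w0 + s 0 1 * w1) + t 0 1 * (s 1 0 * w0 + s 1 1 * w1)) +
            t 0 1 * (t 1 0 * (s 0 0 * w0 + s 0 1 * w1) + t 1 1 * (s 1 0 * w0 + s 1 1 * w1)) =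
            s 0 0 * w0 + s 0 1 * w1 := by
          linear_combination (s 0 0 * w0 + s 0 1 * w1) * htt0 + (s 1 0 * w0 + s 1 1 * w1) * htt1
        rw [← this, e0', e1', hw0]
        ring
      have f1 : s 1 0 * w0 + s 1 1 * w1 = c' * w1 := by
        have a0 : (t * s * t) 0 0 * v0 + (t * s * t) 0 1 * v1 =
            t 0 0 * (s 0 0 * w0 + s 0 1 * w1) + t 0 1 * (s 1 0 * w0 + s 1 1 * w1) := by
          simp only [mul2, hw0, hw1]; ring
        have a1 : (t * s * t) 1 0 * v0 + (t * s * t) 1 1 * v1 =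
            t 1 0 * (s 0 0 * w0 + s 0 1 * w1) + t 1 1 * (s 1 0 * w0 + s 1 1 * w1) := by
          simp only [mul2, hw0, hw1]; ring
        rw [a0] at e0'
        rw [a1] at e1'
        have : t 1 0 * (t 0 0 * (s 0 0 * w0 + s 0 1 * w1) + t 0 1 * (s 1 0 * w0 + s 1 1 * w1)) +
            t 1 1 * (t 1 0 * (s 0 0 * w0 + s 0 1 * w1) + t 1 1 * (s 1 0 * w0 + s 1 1 * w1)) =
            s 1 0 * w0 + s 1 1 * w1 := by
          linear_combination (s 0 0 * w0 + s 0 1 * w1) * htt2 + (s 1 0 * w0 + s 1 1 * w1) * htt3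
        rw [← this, e0', e1', hw1]
        ring
      have hcross : v0 * w1 - v1 * w0 = 0 := by
        by_contra hx
        rw [Matrix.det_fin_two] at hsd
        have g1 : c * c' = 1 := by
          have : (v0 * w1 - v1 * w0) * (c * c' - 1) = 0 := by
            have g : (c * v0) * (c' * w1) - (c * v1) * (c' * w0) = v0 * w1 - v1 * w0 := by
              rw [← e0, ← e1, ← f0, ← f1]
              linear_combination (v0 * w1 - v1 * w0) * hsd
            linear_combination g
          have := (mul_eq_zero.mp this).resolve_left hx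
          linarith
        have hcc : c * c = 1 := by rw [← abs_mul_abs_self, hc]; norm_num
        have g2 : c' = c := by
          have : c' = c * c * c' := by rw [hcc, one_mul]
          rw [this, mul_assoc, g1, mul_one]
        rw [g2] at f0 f1
        have k00 : s 0 0 = c := by
          have : (v0 * w1 - v1 * w0) * (s 0 0 - c) = 0 := by
            linear_combination w1 * e0 - v1 * f0
          linarith [(mul_eq_zero.mp this).resolve_left hx]
        have k01 : s 0 1 = 0 := by
          have : (v0 * w1 - v1 * w0) * s 0 1 = 0 := by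
            linear_combination v0 * f0 - w0 * e0
          exact (mul_eq_zero.mp this).resolve_left hx
        have k10 : s 1 0 = 0 := by
          have : (v0 * w1 - v1 * w0) * s 1 0 = 0 := by
            linear_combination w1 * e1 - v1 * f1
          exact (mul_eq_zero.mp this).resolve_left hx
        have k11 : s 1 1 = c := by
          have : (v0 * w1 - v1 * w0) * (s 1 1 - c) = 0 := by
            linear_combination v0 * f1 - w0 * e1
          linarith [(mul_eq_zero.mp this).resolve_left hx]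
        rcases (abs_eq (zero_le_one' ℝ)).1 hc with hc1 | hc1
        · apply hs1
          ext i j
          fin_cases i <;> fin_cases j <;> simp [k00, k01, k10, k11, hc1]
        · apply hs2
          ext i j
          fin_cases i <;> fin_cases j <;> simp [k00, k01, k10, k11, hc1]
      -- `t v = λ v`
      have hlam : ∃ l : ℝ, |l| = 1 ∧ w0 = l * v0 ∧ w1 = l * v1 := by
        have hex : ∃ l : ℝ, w0 = l * v0 ∧ w1 = l * v1 := by
          by_cases hv0 : v0 = 0
          · have hv1 : v1 ≠ 0 := hv.resolve_left (by simp [hv0])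
            refine ⟨w1 / v1, ?_, by field_simp⟩
            rw [hv0] at hcross ⊢
            have : v1 * w0 = 0 := by linarith
            rw [(mul_eq_zero.mp this).resolve_left hv1]; ring
          · refine ⟨w0 / v0, by field_simp, ?_⟩
            field_simp
            linarith
        obtain ⟨l, l0, l1⟩ := hex
        refine ⟨l, ?_, l0, l1⟩
        have g0 : (l * l - 1) * v0 = 0 := by
          have : t 0 0 * w0 + t 0 1 * w1 = v0 := by
            rw [hw0, hw1]; linear_combination v0 * htt0 + v1 * htt1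
          rw [l0, l1] at this
          have e : l * (t 0 0 * v0 + t 0 1 * v1) = v0 := by linarith
          rw [← hw0, l0] at e
          linarith
        have g1 : (l * l - 1) * v1 = 0 := by
          have : t 1 0 * w0 + t 1 1 * w1 = v1 := by
            rw [hw0, hw1]; linear_combination v0 * htt2 + v1 * htt3
          rw [l0, l1] at this
          have e : l * (t 1 0 * v0 + t 1 1 * v1) = v1 := by linarith
          rw [← hw1, l1] at e
          linarith
        have g2 : l * l = 1 := by
          rcases hv with hv | hv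
          · linarith [(mul_eq_zero.mp g0).resolve_right hv]
          · linarith [(mul_eq_zero.mp g1).resolve_right hv]
        have : |l| * |l| = 1 := by rw [abs_mul_abs_self, g2]
        nlinarith [abs_nonneg l]
      obtain ⟨l, hl, l0, l1⟩ := hlam
      refine ⟨v0, v1, hv, fun a ha => ?_⟩
      rcases hdet a ha with hd | hd
      · exact h a ⟨ha, hd⟩
      · obtain ⟨k, hk, k0, k1⟩ := h _ (hneg' a ha hd)
        refine ⟨l * k, by rw [abs_mul, hl, hk, one_mul], ?_, ?_⟩
        · have : (a * t * t) 0 0 * v0 + (a * t * t) 0 1 * v1 =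
              (a * t) 0 0 * w0 + (a * t) 0 1 * w1 := by
            rw [mul2 (a * t), mul2 (a * t), hw0, hw1]; ring
          rw [← hst a] at this
          rw [this, l0, l1]
          linear_combination l * k0
        · have : (a * t * t) 1 0 * v0 + (a * t * t) 1 1 * v1 =
              (a * t) 1 0 * w0 + (a * t) 1 1 * w1 := by
            rw [mul2 (a * t), mul2 (a * t), hw0, hw1]; ring
          rw [← hst a] at this
          rw [this, l0, l1]
          linear_combination l * k1
    · push Not at hc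
      -- the positive part is in `{1, -1}`
      have htr0 := htr' t htS htd
      rw [tr2] at htr0
      have htd' := htd
      rw [Matrix.det_fin_two] at htd'
      have h11 : t 1 1 = - t 0 0 := by linarith
      obtain ⟨u0, u1, hu, g0, g1⟩ : ∃ u0 u1 : ℝ, (u0 ≠ 0 ∨ u1 ≠ 0) ∧
          t 0 0 * u0 + t 0 1 * u1 = u0 ∧ t 1 0 * u0 + t 1 1 * u1 = u1 := by
        by_cases hb : t 0 1 = 0 ∧ 1 - t 0 0 = 0
        · refine ⟨1 + t 0 0, t 1 0, Or.inl (by linarith [hb.2]), ?_, ?_⟩
          · rw [hb.1]; linear_combination (-(1 + t 0 0)) * hb.2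
          · rw [h11]; ring
        · refine ⟨t 0 1, 1 - t 0 0, ?_, ?_, ?_⟩
          · by_contra hh
            push Not at hh
            exact hb hh
          · ring
          · rw [h11] at htd' ⊢
            linear_combination -htd'
      refine ⟨u0, u1, hu, fun a ha => ?_⟩
      have hpm : ∀ b ∈ S, b.det = 1 → b = 1 ∨ b = -1 := by
        intro b hb hd
        by_cases h1 : b = 1
        · exact Or.inl h1
        · exact Or.inr (hc b hb hd h1)
      rcases hdet a ha with hd | hd
      · rcases hpm a ha hd with h1 | h1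
        · exact ⟨1, by simp, by simp [h1], by simp [h1]⟩
        · exact ⟨-1, by simp, by simp [h1], by simp [h1]⟩
      · have h2 := hneg' a ha hd
        rcases hpm _ h2.1 h2.2 with h1 | h1
        · have : a = t := by rw [hst a, h1, one_mul]
          exact ⟨1, by simp, by rw [this, one_mul]; exact g0, by rw [this, one_mul]; exact g1⟩
        · have : a = -t := by rw [hst a, h1, neg_one_mul]
          refine ⟨-1, by simp, ?_, ?_⟩
          · rw [this]; simp only [Matrix.neg_apply]; linarith
          · rw [this]; simp only [Matrix.neg_apply]; linarith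

end Vale.Agent.P207.N3.H618
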